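import Vale.Agent.P097.H710.GU.Core
import Vale.Agent.P097.H222.Cone6

/-! # P097 / case c, row GLOB-U: the label package for a bounded superharmonic height

Index free form of helper456 (note 16467): no `Bn`, no `MM`. -/

set_option linter.all false

open Complex Metric Filter Topology Set MeasureTheory
open scoped ENNReal

namespace Vale.Agent.P097.H710.GU

open Vale.Agent.P097.H222 Vale.Agent.P097.H839.Cone

/-- the conclusion of the row (U) -/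
def UnifP (R : ℂ → ℝ) (e₁ : ℝ) : Prop :=
  ∃ (m T ρ₀ : ℝ) (Ψ : ℂ → ℂ) (S : Set ℝ) (Pt : ℝ → ℂ) (c k : ℝ → ℝ), 0 < m ∧ 0 < ρ₀ ∧
    IsCompact S ∧ volume S ≠ 0 ∧
    (∀ u ∈ S, |u| + ρ₀ < e₁ ∧ Irrational u ∧ (Pt u).im = R u ∧ m < R u ∧ |c u| ≤ T ∧ |k u| ≤ T) ∧
    ContinuousOn (fun u => (Pt u).im) S ∧ ContinuousOn c S ∧ ContinuousOn k S ∧
    (∀ u ∈ S, DifferentiableOn ℂ Ψ {w | |w.re - u| < ρ₀ ∧ 0 < w.im ∧ w.im < ρ₀} ∧
      ∀ w : ℂ, |w.re - u| < ρ₀ → 0 < w.im → w.im < ρ₀ →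
        ‖w‖ < e₁ ∧ m ≤ (Ψ w).im ∧ (Ψ w).im ≤ R w) ∧
    (∀ c₁ > 0, ∀ ε > 0, ∃ ρ > 0, ∀ u ∈ S, ∀ w : ℂ, |w.re - u| < ρ → 0 < w.im → w.im < ρ →
      c₁ * |w.re - u| ≤ w.im → ‖Ψ w - Pt u - (I * c u + k u) * (w - u)‖ ≤ ε * ‖w - u‖) ∧
    (∀ ε > 0, ∃ δ > 0, ∀ u ∈ S, ∀ v : ℂ, ‖v‖ < δ →
      R u + c u * v.re + k u * |v.im| - ε * ‖v‖ ≤ R (u + v))

theorem unif_sup {R : ℂ → ℝ} {r₀ B c₀ : ℝ} (hr : 0 < r₀) (hc₀ : 0 < c₀) (S : SupB R r₀ B)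
    (hlow : ∀ w : ℂ, ‖w‖ < r₀ → c₀ ≤ R w) : UnifP R r₀ := by
  have h00 : |(0 : ℝ)| < r₀ := by rw [abs_zero]; exact hr
  have hm0 : c₀ / 2 < R ((0 : ℝ) : ℂ) := by
    have := hlow ((0 : ℝ) : ℂ) (by simpa using hr)
    linarith
  obtain ⟨ρ, hρ, hρr, Ψ, hd, hle, hmm, hg⟩ := S.exists_psi h00 hm0
  rw [abs_zero, zero_add] at hρr
  have hUp : ∀ {u : ℝ}, |u| ≤ ρ / 4 → ∀ w : ℂ, |w.re - u| < ρ / 4 → 0 < w.im → w.im < ρ / 4 →
      w ∈ Up 0 ρ ∧ ‖w‖ < r₀ := by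
    intro u hu w h1 h2 h3
    have h4 := Complex.norm_le_abs_re_add_abs_im w
    have h5 : |w.re| ≤ |w.re - u| + |u| := by simpa using abs_add_le (w.re - u) u
    rw [abs_of_pos h2] at h4
    have h6 : ‖w‖ < ρ := by linarith
    exact ⟨⟨by simpa using h6, h2⟩, h6.trans hρr⟩
  obtain ⟨T, K, Pt, c, k, hK, hK0, hu, hPc, hcc, hkc, hNT, hCN⟩ :=
    unif_core (R := R) (Ψ := Ψ) (a := -(ρ / 4)) (b := ρ / 4) (by linarith) (by
      filter_upwards [hg] with u hu huI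
      have huρ : |u - 0| < ρ := by
        rw [sub_zero]
        exact (abs_le.2 ⟨huI.1, huI.2⟩).trans_lt (by linarith)
      obtain ⟨P, c, k, h1, h2, -, h4⟩ := hu huρ
      refine ⟨P, c, k, h1, fun c₁ hc₁ ε hε => ?_, fun ε hε => ?_⟩
      · obtain ⟨δ, hδ, h5⟩ := h2 c₁ hc₁ ε hε
        refine ⟨δ, hδ, fun v hv hvc => (h5 v hv ?_ hvc.le).2⟩
        exact lt_of_le_of_lt (by positivity) hvc
      · obtain ⟨δ, hδ, h5⟩ := h4 ε hε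
        refine ⟨δ, hδ, fun v hv => ?_⟩
        rw [h1]
        exact h5 v hv)
  have hI : ∀ u ∈ K, |u| ≤ ρ / 4 := fun u huK => abs_le.2 ⟨(hu u huK).1.1, (hu u huK).1.2⟩
  refine ⟨c₀ / 2, T, ρ / 4, Ψ, K, Pt, c, k, by linarith, by linarith, hK, hK0, fun u huK => ?_,
    Complex.continuous_im.comp_continuousOn hPc, hcc, hkc, fun u huK => ⟨?_, fun w h1 h2 h3 => ?_⟩,
    fun c₁ hc₁ ε hε => ?_, fun ε hε => ?_⟩
  · have h1 := hI u huK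
    have h2 : c₀ ≤ R u := hlow u (by
      rw [norm_real, Real.norm_eq_abs]; linarith)
    exact ⟨by linarith, (hu u huK).2.1, (hu u huK).2.2.1, by linarith, (hu u huK).2.2.2.1,
      (hu u huK).2.2.2.2⟩
  · exact hd.mono fun w hw => (hUp (hI u huK) w hw.1 hw.2.1 hw.2.2).1
  · obtain ⟨h4, h5⟩ := hUp (hI u huK) w h1 h2 h3
    exact ⟨h5, (hmm w h4).le, hle w h4⟩
  · obtain ⟨δ, hδ, h1⟩ := hNT (c₁ / (2 * (1 + c₁))) (by positivity) ε hε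
    refine ⟨δ / 2, by positivity, fun u huK w h2 h3 h4 h5 => ?_⟩
    have h6 := Complex.norm_le_abs_re_add_abs_im (w - u)
    have e1 : (w - (u : ℂ)).re = w.re - u := by simp
    have e2 : (w - (u : ℂ)).im = w.im := by simp
    rw [e1, e2, abs_of_pos h3] at h6
    have h7 := h1 u huK (w - u) (by linarith) (by
      rw [e2]
      have h8 : c₁ * ‖w - (u : ℂ)‖ ≤ (1 + c₁) * w.im := by nlinarith
      have h9 : c₁ / (2 * (1 + c₁)) * ‖w - (u : ℂ)‖ ≤ w.im / 2 := by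
        have : c₁ / (2 * (1 + c₁)) * ‖w - (u : ℂ)‖ = (c₁ * ‖w - (u : ℂ)‖) / (2 * (1 + c₁)) := by
          ring
        rw [this, div_le_iff₀ (by positivity)]
        linarith
      linarith)
    rw [add_sub_cancel] at h7
    exact h7
  · obtain ⟨δ, hδ, h1⟩ := hCN ε hε
    refine ⟨δ, hδ, fun u huK v hv => ?_⟩
    have h2 := h1 u huK v hv
    rw [(hu u huK).2.2.1] at h2
    exact h2

end Vale.Agent.P097.H710.GU
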