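import Vale.Agent.P097.H21.ConeU

/-! # P097 / case c, row GLOB-U: the label package, abstract core

From the almost everywhere expansion of the comparison function at the real labels (point, slopes
`c`, `k`) to ONE compact set of labels of positive measure on which everything is uniform and
continuous. -/

set_option linter.all false

open Complex Metric Filter Topology Set MeasureTheory
open scoped ENNReal

namespace Vale.Agent.P097.H710.GU

/-- non tangential expansion at `u` with explicit constants -/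
def NT (Ψ : ℂ → ℂ) (u : ℝ) (P : ℂ) (c k c₁ ε δ : ℝ) : Prop :=
  ∀ v : ℂ, ‖v‖ < δ → c₁ * ‖v‖ < v.im → ‖Ψ (u + v) - P - (I * c + k) * v‖ ≤ ε * ‖v‖

/-- two sided cone bound at `u` with explicit constants -/
def CN (R : ℂ → ℝ) (u : ℝ) (P : ℂ) (c k ε δ : ℝ) : Prop :=
  ∀ v : ℂ, ‖v‖ < δ → P.im + c * v.re + k * |v.im| - ε * ‖v‖ ≤ R (u + v)

/-- labels with bounded data -/
def FF (R : ℂ → ℝ) (Ψ : ℂ → ℂ) (a b T c₁ ε δ : ℝ) : Set ℝ :=
  {u | u ∈ Icc a b ∧ ∃ (P : ℂ) (c k : ℝ), ‖P‖ ≤ T ∧ |c| ≤ T ∧ |k| ≤ T ∧ NT Ψ u P c k c₁ ε δ ∧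
    CN R u P c k ε δ}

theorem NT.mono {Ψ : ℂ → ℂ} {u : ℝ} {P : ℂ} {c k c₁ ε δ c₁' ε' δ' : ℝ}
    (h : NT Ψ u P c k c₁ ε δ) (hc : c₁ ≤ c₁') (he : ε ≤ ε') (hd : δ' ≤ δ) :
    NT Ψ u P c k c₁' ε' δ' := fun v hv hvc =>
  (h v (hv.trans_le hd) ((mul_le_mul_of_nonneg_right hc (norm_nonneg _)).trans_lt hvc)).trans
    (mul_le_mul_of_nonneg_right he (norm_nonneg _))

theorem CN.mono {R : ℂ → ℝ} {u : ℝ} {P : ℂ} {c k ε δ ε' δ' : ℝ}
    (h : CN R u P c k ε δ) (he : ε ≤ ε') (hd : δ' ≤ δ) : CN R u P c k ε' δ' := by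
  intro v hv
  have h1 := h v (hv.trans_le hd)
  have h2 : ε * ‖v‖ ≤ ε' * ‖v‖ := mul_le_mul_of_nonneg_right he (norm_nonneg _)
  linarith

theorem FF_closed (R : ℂ → ℝ) (Ψ : ℂ → ℂ) (a b T c₁ ε δ : ℝ) :
    IsClosed (FF R Ψ a b T c₁ ε δ) := by
  refine IsSeqClosed.isClosed ?_
  intro x u hx hxu
  have huI : u ∈ Icc a b := isClosed_Icc.mem_of_tendsto hxu (Eventually.of_forall fun n => (hx n).1)
  choose hxI P c k hP hc hk hN hC using hx
  have hcomp : IsCompact (closedBall (0 : ℂ) T ×ˢ (Icc (-T) T ×ˢ Icc (-T) T)) :=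
    (isCompact_closedBall _ _).prod (isCompact_Icc.prod isCompact_Icc)
  obtain ⟨⟨P', c', k'⟩, hmem, φ, hφ, hlim⟩ := hcomp.tendsto_subseq
    (x := fun n => (P n, c n, k n)) (fun n => ⟨by simpa using hP n, abs_le.1 (hc n),
      abs_le.1 (hk n)⟩)
  have hP' : Tendsto (fun n => P (φ n)) atTop (𝓝 P') := (continuous_fst.tendsto _).comp hlim
  have hc' : Tendsto (fun n => c (φ n)) atTop (𝓝 c') :=
    ((continuous_fst.comp continuous_snd).tendsto _).comp hlim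
  have hk' : Tendsto (fun n => k (φ n)) atTop (𝓝 k') :=
    ((continuous_snd.comp continuous_snd).tendsto _).comp hlim
  have hx' : Tendsto (fun n => x (φ n)) atTop (𝓝 u) := hxu.comp hφ.tendsto_atTop
  have hxc : Tendsto (fun n => ((x (φ n) : ℝ) : ℂ)) atTop (𝓝 (u : ℂ)) :=
    (Complex.continuous_ofReal.tendsto u).comp hx'
  have hv : ∀ v : ℂ, Tendsto (fun n => (u : ℂ) + v - (x (φ n) : ℂ)) atTop (𝓝 v) := by
    intro v
    have := (tendsto_const_nhds (x := (u : ℂ) + v)).sub hxc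
    simpa using this
  have e1 : ∀ (v : ℂ) (n : ℕ), ((x (φ n) : ℝ) : ℂ) + ((u : ℂ) + v - (x (φ n) : ℂ)) = u + v :=
    fun v n => by ring
  refine ⟨huI, P', c', k', by simpa using hmem.1, abs_le.2 hmem.2.1, abs_le.2 hmem.2.2, ?_, ?_⟩
  · intro v hvd hvc
    have h1 : ∀ᶠ n in atTop, ‖(u : ℂ) + v - (x (φ n) : ℂ)‖ < δ :=
      (hv v).norm.eventually_lt_const hvd
    have h2 : ∀ᶠ n in atTop, 0 < ((u : ℂ) + v - (x (φ n) : ℂ)).im -
        c₁ * ‖(u : ℂ) + v - (x (φ n) : ℂ)‖ := by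
      have : Tendsto (fun n => ((u : ℂ) + v - (x (φ n) : ℂ)).im -
        c₁ * ‖(u : ℂ) + v - (x (φ n) : ℂ)‖) atTop (𝓝 (v.im - c₁ * ‖v‖)) :=
        ((Complex.continuous_im.tendsto v).comp (hv v)).sub ((hv v).norm.const_mul c₁)
      exact this.eventually_const_lt (by linarith)
    have h3 : Tendsto (fun n => ‖Ψ (u + v) - P (φ n) -
        (I * (c (φ n) : ℂ) + (k (φ n) : ℂ)) * ((u : ℂ) + v - (x (φ n) : ℂ))‖) atTop
        (𝓝 ‖Ψ (u + v) - P' - (I * (c' : ℂ) + (k' : ℂ)) * v‖) := by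
      refine Tendsto.norm ?_
      refine (tendsto_const_nhds.sub hP').sub (Tendsto.mul ?_ (hv v))
      exact (tendsto_const_nhds.mul ((Complex.continuous_ofReal.tendsto _).comp hc')).add
        ((Complex.continuous_ofReal.tendsto _).comp hk')
    refine le_of_tendsto_of_tendsto h3 ((hv v).norm.const_mul ε) ?_
    filter_upwards [h1, h2] with n h4 h5
    have h6 := hN (φ n) _ h4 (by linarith)
    rwa [e1] at h6
  · intro v hvd
    have h1 : ∀ᶠ n in atTop, ‖(u : ℂ) + v - (x (φ n) : ℂ)‖ < δ :=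
      (hv v).norm.eventually_lt_const hvd
    have h2 : Tendsto (fun n => (P (φ n)).im + c (φ n) * ((u : ℂ) + v - (x (φ n) : ℂ)).re +
        k (φ n) * |((u : ℂ) + v - (x (φ n) : ℂ)).im| - ε * ‖(u : ℂ) + v - (x (φ n) : ℂ)‖) atTop
        (𝓝 (P'.im + c' * v.re + k' * |v.im| - ε * ‖v‖)) := by
      refine ((((Complex.continuous_im.tendsto _).comp hP').add
        (hc'.mul ((Complex.continuous_re.tendsto v).comp (hv v)))).add (hk'.mul ?_)).sub
        ((hv v).norm.const_mul ε)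
      exact ((Complex.continuous_im.tendsto v).comp (hv v)).abs
    refine le_of_tendsto h2 ?_
    filter_upwards [h1] with n h4
    have h6 := hC (φ n) _ h4
    rwa [e1] at h6

/-- uniqueness of the data -/
theorem NT.unique {Ψ : ℂ → ℂ} {u : ℝ} {P P' : ℂ} {c k c' k' c₁ ε δ : ℝ}
    (hg : ∀ c₁ > 0, ∀ ε > 0, ∃ δ > 0, NT Ψ u P c k c₁ ε δ)
    (h : NT Ψ u P' c' k' c₁ ε δ) (hc₁ : c₁ < 1) (hδ : 0 < δ) :
    P = P' ∧ ‖(I * (c : ℂ) + (k : ℂ)) - (I * (c' : ℂ) + (k' : ℂ))‖ ≤ ε := by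
  set L : ℂ := I * (c : ℂ) + (k : ℂ) with hL
  set L' : ℂ := I * (c' : ℂ) + (k' : ℂ) with hL'
  -- the points `u + i t`
  have key : ∀ η > 0, ∃ δ' > 0, ∀ t : ℝ, 0 < t → t < δ' →
      ‖(P' - P) + (L' - L) * (t * I)‖ ≤ (η + ε) * t := by
    intro η hη
    obtain ⟨δ₀, hδ₀, h0⟩ := hg (1 / 2) (by norm_num) η hη
    refine ⟨min δ₀ δ, lt_min hδ₀ hδ, fun t ht htd => ?_⟩
    have hn : ‖((t : ℂ) * I)‖ = t := by
      rw [norm_mul, norm_I, mul_one, norm_real, Real.norm_of_nonneg ht.le]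
    have him : ((t : ℂ) * I).im = t := by simp
    have a1 := h0 (t * I) (by rw [hn]; exact htd.trans_le (min_le_left _ _))
      (by rw [hn, him]; linarith)
    have a2 := h (t * I) (by rw [hn]; exact htd.trans_le (min_le_right _ _))
      (by rw [hn, him]; nlinarith)
    rw [hn] at a1 a2
    rw [← hL] at a1
    rw [← hL'] at a2
    have e : (P' - P) + (L' - L) * (t * I) = (Ψ (u + t * I) - P - L * (t * I)) -
        (Ψ (u + t * I) - P' - L' * (t * I)) := by ring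
    rw [e]
    refine (norm_sub_le _ _).trans ?_
    linarith
  have hP : P = P' := by
    by_contra hne
    have h1 : 0 < ‖P' - P‖ := norm_pos_iff.2 (sub_ne_zero.2 (Ne.symm hne))
    obtain ⟨δ', hδ', h2⟩ := key 1 one_pos
    set K : ℝ := |1 + ε| + ‖L' - L‖ + 1 with hK
    have hK0 : 0 < K := by positivity
    set t : ℝ := min (δ' / 2) (‖P' - P‖ / (2 * K)) with ht
    have ht0 : 0 < t := lt_min (by positivity) (by positivity)
    have ht1 : t < δ' := (min_le_left _ _).trans_lt (by linarith)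
    have ht2 : t * K ≤ ‖P' - P‖ / 2 := by
      have h3 : t ≤ ‖P' - P‖ / (2 * K) := min_le_right _ _
      calc t * K ≤ ‖P' - P‖ / (2 * K) * K := mul_le_mul_of_nonneg_right h3 hK0.le
        _ = ‖P' - P‖ / 2 := by field_simp
    have h3 := h2 t ht0 ht1
    have h4 : ‖P' - P‖ ≤ ‖(P' - P) + (L' - L) * (t * I)‖ + ‖(L' - L) * (t * I)‖ := by
      have := norm_sub_le ((P' - P) + (L' - L) * (t * I)) ((L' - L) * (t * I))
      simpa using this
    have h5 : ‖(L' - L) * (t * I)‖ = ‖L' - L‖ * t := by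
      rw [norm_mul, norm_mul, norm_I, mul_one, norm_real, Real.norm_of_nonneg ht0.le]
    rw [h5] at h4
    have h6 : (1 + ε) * t ≤ |1 + ε| * t := mul_le_mul_of_nonneg_right (le_abs_self _) ht0.le
    nlinarith
  refine ⟨hP, ?_⟩
  refine le_of_forall_pos_le_add fun η hη => ?_
  obtain ⟨δ', hδ', h2⟩ := key η hη
  have h3 := h2 (δ' / 2) (by positivity) (by linarith)
  rw [← hP, sub_self, zero_add, norm_mul, norm_mul, norm_I, mul_one, norm_real,
    Real.norm_of_nonneg (by positivity : (0:ℝ) ≤ δ' / 2), norm_sub_rev] at h3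
  have h4 := le_of_mul_le_mul_right h3 (by positivity : 0 < δ' / 2)
  linarith

/-- size of the components of the slope -/
theorem comp_le (c k c' k' : ℝ) :
    |c - c'| ≤ ‖(I * (c : ℂ) + (k : ℂ)) - (I * (c' : ℂ) + (k' : ℂ))‖ ∧
    |k - k'| ≤ ‖(I * (c : ℂ) + (k : ℂ)) - (I * (c' : ℂ) + (k' : ℂ))‖ := by
  set z := (I * (c : ℂ) + (k : ℂ)) - (I * (c' : ℂ) + (k' : ℂ)) with hz
  have h1 : z.im = c - c' := by simp [hz]
  have h2 : z.re = k - k' := by simp [hz]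
  rw [← h1, ← h2]
  exact ⟨Complex.abs_im_le_norm z, Complex.abs_re_le_norm z⟩

/-- uniform expansion on a set of labels: continuity of the slope -/
theorem cont_of_unif {Ψ : ℂ → ℂ} {S : Set ℝ} {Pt : ℝ → ℂ} {c k : ℝ → ℝ} {T : ℝ}
    (hT : ∀ u ∈ S, |c u| ≤ T ∧ |k u| ≤ T)
    (h : ∀ c₁ > 0, ∀ ε > 0, ∃ δ > 0, ∀ u ∈ S, NT Ψ u (Pt u) (c u) (k u) c₁ ε δ) :
    ContinuousOn Pt S ∧ ContinuousOn c S ∧ ContinuousOn k S := by
  have key : ∀ ε > 0, ∃ δ > 0, ∀ u ∈ S, ∀ u' ∈ S, |u - u'| < δ →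
      ‖Pt u - Pt u'‖ ≤ (3 * ε + 6 * |T|) * |u - u'| ∧
      ‖(I * (c u : ℂ) + (k u : ℂ)) - (I * (c u' : ℂ) + (k u' : ℂ))‖ ≤ 8 * ε := by
    intro ε hε
    obtain ⟨δ, hδ, h0⟩ := h (1 / 4) (by norm_num) ε hε
    refine ⟨δ / 4, by positivity, fun u hu u' hu' hd => ?_⟩
    rcases eq_or_ne u u' with rfl | hne
    · simp only [sub_self, norm_zero, abs_zero, mul_zero]
      exact ⟨le_rfl, by positivity⟩
    set t : ℝ := |u - u'| with ht
    have ht0 : 0 < t := abs_pos.2 (sub_ne_zero.2 hne)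
    set L : ℂ := I * (c u : ℂ) + (k u : ℂ) with hL
    set L' : ℂ := I * (c u' : ℂ) + (k u' : ℂ) with hL'
    have hLn : ∀ x ∈ S, ‖I * (c x : ℂ) + (k x : ℂ)‖ ≤ 2 * |T| := by
      intro x hx
      have h1 := norm_add_le (I * (c x : ℂ)) (k x : ℂ)
      rw [norm_mul, norm_I, one_mul, norm_real, norm_real, Real.norm_eq_abs, Real.norm_eq_abs] at h1
      have h2 := hT x hx
      have h3 := le_abs_self T
      linarith
    have hn : ∀ s : ℝ, 0 < s → ‖((s : ℂ) * I)‖ = s := fun s hs => by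
      rw [norm_mul, norm_I, mul_one, norm_real, Real.norm_of_nonneg hs.le]
    have hn' : ∀ s : ℝ, 0 < s → ‖((u - u' : ℝ) : ℂ) + (s : ℂ) * I‖ ≤ t + s := fun s hs => by
      refine (norm_add_le _ _).trans ?_
      rw [hn s hs, norm_real, Real.norm_eq_abs]
    -- two points
    have a1 := h0 u hu (t * I) (by rw [hn t ht0]; linarith)
      (by rw [hn t ht0]; simp; linarith)
    have a2 := h0 u hu ((2 * t : ℝ) * I) (by rw [hn _ (by positivity)]; linarith)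
      (by rw [hn _ (by positivity)]; simp; linarith)
    have b1 := h0 u' hu' (((u - u' : ℝ) : ℂ) + (t : ℂ) * I)
      (by have := hn' t ht0; linarith) (by
        have := hn' t ht0
        have e : (((u - u' : ℝ) : ℂ) + (t : ℂ) * I).im = t := by simp
        rw [e]; linarith)
    have b2 := h0 u' hu' (((u - u' : ℝ) : ℂ) + ((2 * t : ℝ) : ℂ) * I)
      (by have := hn' (2 * t) (by positivity); linarith) (by
        have := hn' (2 * t) (by positivity)
        have e : (((u - u' : ℝ) : ℂ) + ((2 * t : ℝ) : ℂ) * I).im = 2 * t := by simp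
        rw [e]; linarith)
    rw [hn t ht0, ← hL] at a1
    rw [hn _ (by positivity), ← hL] at a2
    have b1' := b1.trans (mul_le_mul_of_nonneg_left (hn' t ht0) hε.le)
    have b2' := b2.trans (mul_le_mul_of_nonneg_left (hn' (2 * t) (by positivity)) hε.le)
    rw [← hL'] at b1' b2'
    have e1 : (u' : ℂ) + (((u - u' : ℝ) : ℂ) + (t : ℂ) * I) = u + t * I := by push_cast; ring
    have e2 : (u' : ℂ) + (((u - u' : ℝ) : ℂ) + ((2 * t : ℝ) : ℂ) * I) = u + ((2 * t : ℝ) : ℂ) * I := by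
      push_cast; ring
    rw [e1] at b1'
    rw [e2] at b2'
    constructor
    · have e : Pt u - Pt u' = (Ψ (u + t * I) - Pt u' - L' * (((u - u' : ℝ) : ℂ) + (t : ℂ) * I)) -
          (Ψ (u + t * I) - Pt u - L * (t * I)) +
          (L' * (((u - u' : ℝ) : ℂ) + (t : ℂ) * I) - L * (t * I)) := by ring
      rw [e]
      refine (norm_add_le _ _).trans ?_
      have h1 := norm_sub_le (Ψ (u + t * I) - Pt u' - L' * (((u - u' : ℝ) : ℂ) + (t : ℂ) * I))
        (Ψ (u + t * I) - Pt u - L * (t * I))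
      have h2 := norm_sub_le (L' * (((u - u' : ℝ) : ℂ) + (t : ℂ) * I)) (L * (t * I))
      rw [norm_mul, norm_mul L, hn t ht0] at h2
      have h3 : ‖L'‖ * ‖((u - u' : ℝ) : ℂ) + (t : ℂ) * I‖ ≤ 2 * |T| * (t + t) :=
        mul_le_mul (hLn u' hu') (hn' t ht0) (norm_nonneg _) (by positivity)
      have h4 : ‖L‖ * t ≤ 2 * |T| * t := mul_le_mul_of_nonneg_right (hLn u hu) ht0.le
      nlinarith
    · have e : (L - L') * (t * I) =
          (Ψ (u + ((2 * t : ℝ) : ℂ) * I) - Pt u' -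
            L' * (((u - u' : ℝ) : ℂ) + ((2 * t : ℝ) : ℂ) * I)) -
          (Ψ (u + t * I) - Pt u' - L' * (((u - u' : ℝ) : ℂ) + (t : ℂ) * I)) -
          ((Ψ (u + ((2 * t : ℝ) : ℂ) * I) - Pt u - L * ((2 * t : ℝ) * I)) -
          (Ψ (u + t * I) - Pt u - L * (t * I))) := by push_cast; ring
      have h1 : ‖(L - L') * (t * I)‖ = ‖L - L'‖ * t := by rw [norm_mul, hn t ht0]
      have h2 : ‖L - L'‖ * t ≤ 8 * ε * t := by
        rw [← h1, e]
        refine (norm_sub_le _ _).trans ?_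
        have h3 := norm_sub_le (Ψ (u + ((2 * t : ℝ) : ℂ) * I) - Pt u' -
            L' * (((u - u' : ℝ) : ℂ) + ((2 * t : ℝ) : ℂ) * I))
          (Ψ (u + t * I) - Pt u' - L' * (((u - u' : ℝ) : ℂ) + (t : ℂ) * I))
        have h4 := norm_sub_le (Ψ (u + ((2 * t : ℝ) : ℂ) * I) - Pt u - L * ((2 * t : ℝ) * I))
          (Ψ (u + t * I) - Pt u - L * (t * I))
        nlinarith
      exact le_of_mul_le_mul_right h2 ht0
  have hC : ∀ {f : ℝ → ℝ} (_ : ∀ u ∈ S, ∀ u' ∈ S,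
      |f u - f u'| ≤ ‖(I * (c u : ℂ) + (k u : ℂ)) - (I * (c u' : ℂ) + (k u' : ℂ))‖),
      ContinuousOn f S := by
    intro f hf
    rw [Metric.continuousOn_iff]
    intro u hu ε hε
    obtain ⟨δ, hδ, h1⟩ := key (ε / 9) (by positivity)
    refine ⟨δ, hδ, fun u' hu' hd => ?_⟩
    rw [Real.dist_eq] at hd ⊢
    have h2 := (hf u' hu' u hu).trans (h1 u' hu' u hu hd).2
    linarith
  refine ⟨?_, hC fun u _ u' _ => (comp_le _ _ _ _).1, hC fun u _ u' _ => (comp_le _ _ _ _).2⟩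
  rw [Metric.continuousOn_iff]
  intro u hu ε hε
  obtain ⟨δ, hδ, h1⟩ := key 1 one_pos
  set K : ℝ := 3 * 1 + 6 * |T| with hK
  have hK0 : 0 < K := by positivity
  refine ⟨min δ (ε / K), lt_min hδ (by positivity), fun u' hu' hd => ?_⟩
  rw [Real.dist_eq] at hd
  rw [dist_eq_norm]
  refine (h1 u' hu' u hu (hd.trans_le (min_le_left _ _))).1.trans_lt ?_
  have h2 : |u' - u| < ε / K := hd.trans_le (min_le_right _ _)
  rw [lt_div_iff₀ hK0] at h2
  linarith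

/-- **the label package** -/
theorem unif_core {R : ℂ → ℝ} {Ψ : ℂ → ℂ} {a b : ℝ} (hab : a < b)
    (hg : ∀ᵐ u : ℝ, u ∈ Icc a b → ∃ (P : ℂ) (c k : ℝ), P.im = R u ∧
      (∀ c₁ > 0, ∀ ε > 0, ∃ δ > 0, NT Ψ u P c k c₁ ε δ) ∧ ∀ ε > 0, ∃ δ > 0, CN R u P c k ε δ) :
    ∃ (T : ℝ) (S : Set ℝ) (Pt : ℝ → ℂ) (c k : ℝ → ℝ), IsCompact S ∧ volume S ≠ 0 ∧
      (∀ u ∈ S, u ∈ Icc a b ∧ Irrational u ∧ (Pt u).im = R u ∧ |c u| ≤ T ∧ |k u| ≤ T) ∧
      ContinuousOn Pt S ∧ ContinuousOn c S ∧ ContinuousOn k S ∧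
      (∀ c₁ > 0, ∀ ε > 0, ∃ δ > 0, ∀ u ∈ S, NT Ψ u (Pt u) (c u) (k u) c₁ ε δ) ∧
      (∀ ε > 0, ∃ δ > 0, ∀ u ∈ S, CN R u (Pt u) (c u) (k u) ε δ) := by
  classical
  -- the good labels
  set G : Set ℝ := {u | Irrational u ∧ ∃ (P : ℂ) (c k : ℝ), P.im = R u ∧
      (∀ c₁ > 0, ∀ ε > 0, ∃ δ > 0, NT Ψ u P c k c₁ ε δ) ∧ ∀ ε > 0, ∃ δ > 0, CN R u P c k ε δ}
    with hG
  have hirr : ∀ᵐ u : ℝ, Irrational u := by
    have h1 : volume (Set.range ((↑) : ℚ → ℝ)) = 0 := (Set.countable_range _).measure_zero _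
    rw [ae_iff]
    refine measure_mono_null (fun u hu => ?_) h1
    by_contra h
    exact hu h
  have hae : ∀ᵐ u : ℝ, u ∈ Icc a b → u ∈ G := by
    filter_upwards [hg, hirr] with u h1 h2 h3
    exact ⟨h2, h1 h3⟩
  set N : Set ℝ := toMeasurable volume {u | ¬ (u ∈ Icc a b → u ∈ G)} with hN
  have hN0 : volume N = 0 := by rw [hN, measure_toMeasurable]; exact ae_iff.1 hae
  set B : Set ℝ := Icc a b \ N with hB
  have hBm : MeasurableSet B := measurableSet_Icc.diff (measurableSet_toMeasurable _ _)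
  have hBG : ∀ u ∈ B, u ∈ G := by
    intro u hu
    by_contra h
    exact hu.2 (subset_toMeasurable _ _ (show ¬ (u ∈ Icc a b → u ∈ G) from fun h' => h (h' hu.1)))
  have hBv : volume B = ENNReal.ofReal (b - a) := by
    rw [hB, measure_diff_null hN0, Real.volume_Icc]
  have hBpos : 0 < volume B := by rw [hBv]; exact ENNReal.ofReal_pos.2 (by linarith)
  have hBfin : volume B ≠ ⊤ := by rw [hBv]; exact ENNReal.ofReal_ne_top
  choose! hir P c k hPR hNT hCN using hBG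
  -- the closed sets
  set F : ℕ → ℕ → Set ℝ := fun m l => FF R Ψ a b l (1 / (m + 2)) (1 / (m + 1)) (1 / (l + 1))
    with hF
  have hFm : ∀ m, Monotone (F m) := by
    intro m l l' hll u hu
    obtain ⟨h1, P', c', k', h2, h3, h4, h5, h6⟩ := hu
    have hl : (l : ℝ) ≤ l' := by exact_mod_cast hll
    have hl2 : 1 / ((l' : ℝ) + 1) ≤ 1 / ((l : ℝ) + 1) :=
      one_div_le_one_div_of_le (by positivity) (by linarith)
    exact ⟨h1, P', c', k', h2.trans hl, h3.trans hl, h4.trans hl, h5.mono le_rfl le_rfl hl2,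
      h6.mono le_rfl hl2⟩
  have hcov : ∀ m, B ⊆ ⋃ l, F m l := by
    intro m u hu
    obtain ⟨δ₁, hδ₁, h1⟩ := hNT u hu (1 / (m + 2)) (by positivity) (1 / (m + 1)) (by positivity)
    obtain ⟨δ₂, hδ₂, h2⟩ := hCN u hu (1 / (m + 1)) (by positivity)
    obtain ⟨l₁, hl₁⟩ := exists_nat_one_div_lt (lt_min hδ₁ hδ₂)
    obtain ⟨l₂, hl₂⟩ := exists_nat_ge (max ‖P u‖ (max |c u| |k u|))
    have hl₂1 := (le_max_left _ _).trans hl₂
    have hl₂2 := ((le_max_left _ _).trans (le_max_right _ _)).trans hl₂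
    have hl₂3 := ((le_max_right _ _).trans (le_max_right _ _)).trans hl₂
    set l := max l₁ l₂ with hl
    have q1 : (l₂ : ℝ) ≤ l := by exact_mod_cast le_max_right l₁ l₂
    have q2 : 1 / ((l : ℝ) + 1) ≤ 1 / ((l₁ : ℝ) + 1) :=
      one_div_le_one_div_of_le (by positivity) (by
        have : (l₁ : ℝ) ≤ l := by exact_mod_cast le_max_left l₁ l₂
        linarith)
    refine mem_iUnion.2 ⟨l, hu.1, P u, c u, k u, hl₂1.trans q1, hl₂2.trans q1, hl₂3.trans q1,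
      h1.mono le_rfl le_rfl ?_, h2.mono le_rfl ?_⟩
    · exact q2.trans (hl₁.le.trans (min_le_left _ _))
    · exact q2.trans (hl₁.le.trans (min_le_right _ _))
  obtain ⟨l, hl⟩ := H21.egorov_closed F (fun m l => FF_closed _ _ _ _ _ _ _ _) hFm hBm hBfin hcov
    hBpos
  have hAm : MeasurableSet (B ∩ ⋂ m, F m (l m)) :=
    hBm.inter (MeasurableSet.iInter fun m => (FF_closed _ _ _ _ _ _ _ _).measurableSet)
  obtain ⟨S, hSA, hSc, hS0⟩ := hAm.exists_lt_isCompact_of_ne_top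
    ((measure_mono inter_subset_left).trans_lt hBfin.lt_top).ne hl
  -- comparison of the data
  have hdat : ∀ u ∈ S, ∀ m : ℕ, ∃ c' k' : ℝ, |c'| ≤ l m ∧ |k'| ≤ l m ∧
      NT Ψ u (P u) c' k' (1 / (m + 2)) (1 / (m + 1)) (1 / (l m + 1)) ∧
      CN R u (P u) c' k' (1 / (m + 1)) (1 / (l m + 1)) ∧
      ‖(I * (c u : ℂ) + (k u : ℂ)) - (I * (c' : ℂ) + (k' : ℂ))‖ ≤ 1 / (m + 1) := by
    intro u hu m
    have huB : u ∈ B := (hSA hu).1
    obtain ⟨-, P', c', k', h2, h3, h4, h5, h6⟩ := mem_iInter.1 (hSA hu).2 m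
    have hc1 : (1 : ℝ) / (m + 2) < 1 := by
      rw [div_lt_one (by positivity)]
      have : (0 : ℝ) ≤ m := Nat.cast_nonneg m
      linarith
    obtain ⟨e, h7⟩ := NT.unique (hNT u huB) h5 hc1 (by positivity)
    rw [← e] at h5 h6
    exact ⟨c', k', h3, h4, h5, h6, h7⟩
  have hT : ∀ u ∈ S, |c u| ≤ l 0 + 1 ∧ |k u| ≤ l 0 + 1 := by
    intro u hu
    obtain ⟨c', k', h1, h2, -, -, h5⟩ := hdat u hu 0
    have h6 := comp_le (c u) (k u) c' k'
    norm_num at h5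
    have h7 := h6.1.trans h5
    have h8 := h6.2.trans h5
    have h9 := abs_sub_abs_le_abs_sub (c u) c'
    have h10 := abs_sub_abs_le_abs_sub (k u) k'
    constructor <;> linarith
  have hNTu : ∀ c₁ > 0, ∀ ε > 0, ∃ δ > 0, ∀ u ∈ S, NT Ψ u (P u) (c u) (k u) c₁ ε δ := by
    intro c₁ hc₁ ε hε
    obtain ⟨m, hm⟩ := exists_nat_one_div_lt (lt_min hc₁ (by positivity : 0 < ε / 2))
    have hm1 : (1 : ℝ) / (m + 1) ≤ c₁ := hm.le.trans (min_le_left _ _)
    have hm2 : (1 : ℝ) / (m + 1) ≤ ε / 2 := hm.le.trans (min_le_right _ _)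
    have hm3 : (1 : ℝ) / (m + 2) ≤ 1 / (m + 1) :=
      one_div_le_one_div_of_le (by positivity) (by linarith)
    refine ⟨1 / (l m + 1), by positivity, fun u hu => ?_⟩
    obtain ⟨c', k', -, -, h3, -, h5⟩ := hdat u hu m
    intro v hv hvc
    have h6 := h3 v hv ((mul_le_mul_of_nonneg_right (hm3.trans hm1) (norm_nonneg _)).trans_lt hvc)
    have e : Ψ (u + v) - P u - (I * (c u : ℂ) + (k u : ℂ)) * v =
        (Ψ (u + v) - P u - (I * (c' : ℂ) + (k' : ℂ)) * v) -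
        ((I * (c u : ℂ) + (k u : ℂ)) - (I * (c' : ℂ) + (k' : ℂ))) * v := by ring
    rw [e]
    refine (norm_sub_le _ _).trans ?_
    rw [norm_mul]
    have h7 := mul_le_mul_of_nonneg_right (h5.trans hm2) (norm_nonneg v)
    have h8 := mul_le_mul_of_nonneg_right hm2 (norm_nonneg v)
    linarith
  have hCNu : ∀ ε > 0, ∃ δ > 0, ∀ u ∈ S, CN R u (P u) (c u) (k u) ε δ := by
    intro ε hε
    obtain ⟨m, hm⟩ := exists_nat_one_div_lt (by positivity : 0 < ε / 3)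
    refine ⟨1 / (l m + 1), by positivity, fun u hu => ?_⟩
    obtain ⟨c', k', -, -, -, h4, h5⟩ := hdat u hu m
    intro v hv
    have h6 := h4 v hv
    have h7 := comp_le (c u) (k u) c' k'
    have h8 : (c u - c') * v.re ≤ ε / 3 * ‖v‖ := by
      calc (c u - c') * v.re ≤ |(c u - c') * v.re| := le_abs_self _
        _ = |c u - c'| * |v.re| := abs_mul _ _
        _ ≤ ε / 3 * ‖v‖ := mul_le_mul ((h7.1.trans h5).trans hm.le) (Complex.abs_re_le_norm v)
          (abs_nonneg _) (by positivity)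
    have h9 : (k u - k') * |v.im| ≤ ε / 3 * ‖v‖ := by
      calc (k u - k') * |v.im| ≤ |k u - k'| * |v.im| :=
          mul_le_mul_of_nonneg_right (le_abs_self _) (abs_nonneg _)
        _ ≤ ε / 3 * ‖v‖ := mul_le_mul ((h7.2.trans h5).trans hm.le) (Complex.abs_im_le_norm v)
          (abs_nonneg _) (by positivity)
    have h10 : 1 / ((m : ℝ) + 1) * ‖v‖ ≤ ε / 3 * ‖v‖ :=
      mul_le_mul_of_nonneg_right hm.le (norm_nonneg _)
    linarith
  obtain ⟨q1, q2, q3⟩ := cont_of_unif hT hNTu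
  exact ⟨l 0 + 1, S, P, c, k, hSc, hS0.ne', fun u hu => ⟨(hSA hu).1.1, hir u (hSA hu).1,
    hPR u (hSA hu).1, hT u hu⟩, q1, q2, q3, hNTu, hCNu⟩

end Vale.Agent.P097.H710.GU
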